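import Vale.Agent.P208.Defs

namespace Vale.Agent.P208

open Module

lemma exists_linearIsometry_of_finrank_le (U : Type*) [NormedAddCommGroup U]
    [InnerProductSpace ℝ U] [FiniteDimensional ℝ U] (d : ℕ) (h : finrank ℝ U ≤ d) :
    Nonempty (U →ₗᵢ[ℝ] EuclideanSpace ℝ (Fin d)) := by
  classical
  let b := stdOrthonormalBasis ℝ U
  let v : Fin (finrank ℝ U) → EuclideanSpace ℝ (Fin d) :=
    fun i => EuclideanSpace.basisFun (Fin d) ℝ (Fin.castLE h i)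
  have hv : Orthonormal ℝ v :=
    (EuclideanSpace.basisFun (Fin d) ℝ).orthonormal.comp _ (Fin.castLE_injective h)
  refine ⟨(b.toBasis.constr ℝ v).isometryOfOrthonormal (v := b.toBasis) ?_ ?_⟩
  · simp
  · have : (b.toBasis.constr ℝ v) ∘ b.toBasis = v := by
      funext i
      simp
    rw [this]
    exact hv

variable {H : Type*} [NormedAddCommGroup H] [InnerProductSpace ℝ H]

lemma extend_isometry (W W' : Submodule ℝ H) [FiniteDimensional ℝ W] [FiniteDimensional ℝ W']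
    (d : ℕ) (hd : finrank ℝ (W ⊔ W' : Submodule ℝ H) ≤ d)
    (T : H →ₗ[ℝ] EuclideanSpace ℝ (Fin d)) (hT : ∀ x ∈ W, ‖T x‖ = ‖x‖) :
    ∃ T' : H →ₗ[ℝ] EuclideanSpace ℝ (Fin d),
      (∀ x ∈ W, T' x = T x) ∧ ∀ x ∈ W ⊔ W', ‖T' x‖ = ‖x‖ := by
  classical
  set U : Submodule ℝ H := W ⊔ W' with hU
  obtain ⟨ι⟩ := exists_linearIsometry_of_finrank_le U d hd
  let W0 : Submodule ℝ U := W.comap U.subtype
  let e := Submodule.equivMapOfInjective ι.toLinearMap ι.injective W0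
  let L0 : (W0.map ι.toLinearMap) →ₗ[ℝ] EuclideanSpace ℝ (Fin d) :=
    T ∘ₗ U.subtype ∘ₗ W0.subtype ∘ₗ e.symm.toLinearMap
  have hL0 : ∀ z, ‖L0 z‖ = ‖z‖ := by
    intro z
    have h1 : ((e.symm z : W0) : U).1 ∈ W := (e.symm z).2
    have h2 : ι ((e.symm z : W0) : U) = z := by
      have := Submodule.coe_equivMapOfInjective_apply ι.toLinearMap ι.injective W0 (e.symm z)
      rw [show Submodule.equivMapOfInjective ι.toLinearMap ι.injective W0 (e.symm z) = z from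
        e.apply_symm_apply z] at this
      exact this.symm
    have h3 : ‖(z : EuclideanSpace ℝ (Fin d))‖ = ‖((e.symm z : W0) : U)‖ := by
      rw [← h2, ι.norm_map]
    calc ‖L0 z‖ = ‖T ((e.symm z : W0) : U).1‖ := rfl
      _ = ‖((e.symm z : W0) : U).1‖ := hT _ h1
      _ = ‖z‖ := by rw [Submodule.coe_norm z, h3]; rfl
  let L : (W0.map ι.toLinearMap) →ₗᵢ[ℝ] EuclideanSpace ℝ (Fin d) := ⟨L0, hL0⟩
  let P : H →ₗ[ℝ] U := (U.orthogonalProjectionOnto).toLinearMap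
  refine ⟨L.extend.toLinearMap ∘ₗ ι.toLinearMap ∘ₗ P, ?_, ?_⟩
  · intro x hx
    have hxU : x ∈ U := (le_sup_left : W ≤ U) hx
    have hP : P x = ⟨x, hxU⟩ := by
      simpa [P] using Submodule.orthogonalProjectionOnto_mem_subspace_eq_self (K := U) ⟨x, hxU⟩
    have hmem : ι ⟨x, hxU⟩ ∈ W0.map ι.toLinearMap := ⟨⟨x, hxU⟩, hx, rfl⟩
    have h4 : e ⟨⟨x, hxU⟩, hx⟩ = ⟨ι ⟨x, hxU⟩, hmem⟩ := by
      apply Subtype.ext
      exact Submodule.coe_equivMapOfInjective_apply ι.toLinearMap ι.injective W0 _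
    have h5 : e.symm ⟨ι ⟨x, hxU⟩, hmem⟩ = ⟨⟨x, hxU⟩, hx⟩ := by
      rw [← h4, e.symm_apply_apply]
    calc (L.extend.toLinearMap ∘ₗ ι.toLinearMap ∘ₗ P) x = L.extend (ι (P x)) := rfl
      _ = L.extend ((⟨ι ⟨x, hxU⟩, hmem⟩ : W0.map ι.toLinearMap) : EuclideanSpace ℝ (Fin d)) := by
          rw [hP]
      _ = L ⟨ι ⟨x, hxU⟩, hmem⟩ := L.extend_apply _
      _ = T ((e.symm ⟨ι ⟨x, hxU⟩, hmem⟩ : W0) : U).1 := rfl
      _ = T x := by rw [h5]
  · intro x hxU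
    have hP : P x = ⟨x, hxU⟩ := by
      simpa [P] using Submodule.orthogonalProjectionOnto_mem_subspace_eq_self (K := U) ⟨x, hxU⟩
    calc ‖(L.extend.toLinearMap ∘ₗ ι.toLinearMap ∘ₗ P) x‖ = ‖L.extend (ι (P x))‖ := rfl
      _ = ‖P x‖ := by rw [L.extend.norm_map, ι.norm_map]
      _ = ‖x‖ := by rw [hP]; rfl

/-- One step: from a map isometric on `W` produce a map isometric on `W'` and jointly isometric. -/
lemma step_isometry (W W' : Submodule ℝ H) [FiniteDimensional ℝ W] [FiniteDimensional ℝ W']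
    (n : ℕ) (hW : finrank ℝ W ≤ n) (hW' : finrank ℝ W' ≤ n)
    (g : H →ₗ[ℝ] EuclideanSpace ℝ (Fin (2 * n))) (hg : ∀ x ∈ W, ‖g x‖ = ‖x‖) :
    ∃ g' : H →ₗ[ℝ] EuclideanSpace ℝ (Fin (2 * n)),
      (∀ x ∈ W', ‖g' x‖ = ‖x‖) ∧ ∀ x ∈ W, ∀ y ∈ W', ‖g x - g' y‖ = ‖x - y‖ := by
  have hd : finrank ℝ (W ⊔ W' : Submodule ℝ H) ≤ 2 * n := by
    have := Submodule.finrank_add_le_finrank_add_finrank W W'
    omega
  obtain ⟨T', h1, h2⟩ := extend_isometry W W' (2 * n) hd g hg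
  refine ⟨T', fun x hx => h2 x ((le_sup_right : W' ≤ W ⊔ W') hx), fun x hx y hy => ?_⟩
  rw [← h1 x hx, ← map_sub]
  exact h2 _ (Submodule.sub_mem _ ((le_sup_left : W ≤ W ⊔ W') hx)
    ((le_sup_right : W' ≤ W ⊔ W') hy))

lemma exists_seq_nat (V : ℕ → Submodule ℝ H) (hfd : ∀ j, FiniteDimensional ℝ (V j)) (n : ℕ)
    (hn : ∀ j, finrank ℝ (V j) ≤ n) (g0 : H →ₗ[ℝ] EuclideanSpace ℝ (Fin (2 * n)))
    (h0 : ∀ x ∈ V 0, ‖g0 x‖ = ‖x‖) :
    ∃ G : ℕ → (H →ₗ[ℝ] EuclideanSpace ℝ (Fin (2 * n))), G 0 = g0 ∧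
      (∀ j, ∀ x ∈ V j, ‖G j x‖ = ‖x‖) ∧
      ∀ j, ∀ x ∈ V j, ∀ y ∈ V (j + 1), ‖G j x - G (j + 1) y‖ = ‖x - y‖ := by
  classical
  have key : ∀ (j : ℕ) (g : H →ₗ[ℝ] EuclideanSpace ℝ (Fin (2 * n))),
      (∀ x ∈ V j, ‖g x‖ = ‖x‖) → ∃ g' : H →ₗ[ℝ] EuclideanSpace ℝ (Fin (2 * n)),
      (∀ x ∈ V (j + 1), ‖g' x‖ = ‖x‖) ∧ ∀ x ∈ V j, ∀ y ∈ V (j + 1), ‖g x - g' y‖ = ‖x - y‖ := by
    intro j g hg
    have := hfd j
    have := hfd (j + 1)
    exact step_isometry (V j) (V (j + 1)) n (hn j) (hn (j + 1)) g hg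
  choose! next hnext using key
  let G : ℕ → (H →ₗ[ℝ] EuclideanSpace ℝ (Fin (2 * n))) :=
    fun j => Nat.rec g0 (fun j g => next j g) j
  have hG : ∀ j, ∀ x ∈ V j, ‖G j x‖ = ‖x‖ := by
    intro j
    induction j with
    | zero => exact h0
    | succ j ih => exact (hnext j (G j) ih).1
  exact ⟨G, rfl, hG, fun j => (hnext j (G j) (hG j)).2⟩

lemma exists_seq_int (W : ℤ → Submodule ℝ H) (hfd : ∀ j, FiniteDimensional ℝ (W j)) (n : ℕ)
    (hn : ∀ j, finrank ℝ (W j) ≤ n) :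
    ∃ G : ℤ → (H →ₗ[ℝ] EuclideanSpace ℝ (Fin (2 * n))),
      (∀ j, ∀ x ∈ W j, ‖G j x‖ = ‖x‖) ∧
      ∀ j, ∀ x ∈ W j, ∀ y ∈ W (j + 1), ‖G j x - G (j + 1) y‖ = ‖x - y‖ := by
  classical
  -- a starting map, isometric on `W 0`
  obtain ⟨g0, h0, -⟩ : ∃ g' : H →ₗ[ℝ] EuclideanSpace ℝ (Fin (2 * n)),
      (∀ x ∈ W 0, ‖g' x‖ = ‖x‖) ∧
        ∀ x ∈ (⊥ : Submodule ℝ H), ∀ y ∈ W 0, ‖(0 : H →ₗ[ℝ] _) x - g' y‖ = ‖x - y‖ := by
    have := hfd 0
    refine step_isometry (⊥ : Submodule ℝ H) (W 0) n (by simp) (hn 0) 0 ?_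
    intro x hx
    simp [(Submodule.mem_bot ℝ).1 hx]
  obtain ⟨up, hup0, hup1, hup2⟩ := exists_seq_nat (fun j : ℕ => W (j : ℤ)) (fun j => hfd _) n
    (fun j => hn _) g0 (by simpa using h0)
  obtain ⟨dn, hdn0, hdn1, hdn2⟩ := exists_seq_nat (fun j : ℕ => W (-(j : ℤ))) (fun j => hfd _) n
    (fun j => hn _) g0 (by simpa using h0)
  let G : ℤ → (H →ₗ[ℝ] EuclideanSpace ℝ (Fin (2 * n))) := fun j =>
    if 0 ≤ j then up j.toNat else dn (-j).toNat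
  have hGup : ∀ k : ℕ, G (k : ℤ) = up k := by
    intro k
    simp [G]
  have hGdn : ∀ k : ℕ, G (-(k : ℤ)) = dn k := by
    intro k
    rcases Nat.eq_zero_or_pos k with rfl | hk
    · simp [G, hup0, hdn0]
    · have : ¬ (0 : ℤ) ≤ -(k : ℤ) := by omega
      have h2 : (-(-(k : ℤ))).toNat = k := by simp
      change (if 0 ≤ -(k : ℤ) then up (-(k : ℤ)).toNat else dn (-(-(k : ℤ))).toNat) = dn k
      rw [if_neg this, h2]
  refine ⟨G, ?_, ?_⟩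
  · intro j
    obtain ⟨k, rfl | rfl⟩ := j.eq_nat_or_neg
    · rw [hGup]; exact hup1 k
    · rw [hGdn]; exact hdn1 k
  · intro j
    obtain ⟨k, rfl | rfl⟩ := j.eq_nat_or_neg
    · have : ((k : ℤ) + 1) = ((k + 1 : ℕ) : ℤ) := by push_cast; ring
      rw [this, hGup, hGup]
      exact hup2 k
    · rcases Nat.eq_zero_or_pos k with rfl | hk
      · have : (-((0 : ℕ) : ℤ) + 1) = ((0 + 1 : ℕ) : ℤ) := by simp
        rw [this]
        have h00 : (-((0 : ℕ) : ℤ)) = ((0 : ℕ) : ℤ) := by simp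
        rw [h00, hGup, hGup]
        exact hup2 0
      · obtain ⟨l, rfl⟩ : ∃ l, k = l + 1 := ⟨k - 1, by omega⟩
        have : (-((l + 1 : ℕ) : ℤ) + 1) = -((l : ℕ) : ℤ) := by push_cast; ring
        rw [this, hGdn, hGdn]
        intro x hx y hy
        have := hdn2 l y hy x hx
        rw [norm_sub_rev, this, norm_sub_rev]

omit [InnerProductSpace ℝ H] in
lemma far_estimate {E : Type*} [NormedAddCommGroup E] (u v : H) (a b : E)
    (ha : ‖a‖ = ‖u‖) (hb : ‖b‖ = ‖v‖) (h : 2 * ‖u‖ ≤ ‖v‖) :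
    1 / 3 * ‖u - v‖ ≤ ‖a - b‖ ∧ ‖a - b‖ ≤ 3 * ‖u - v‖ := by
  have h1 : ‖u - v‖ ≤ ‖u‖ + ‖v‖ := norm_sub_le u v
  have h2 : ‖v‖ - ‖u‖ ≤ ‖u - v‖ := by
    have := norm_sub_norm_le v u
    rwa [norm_sub_rev] at this
  have h3 : ‖a - b‖ ≤ ‖a‖ + ‖b‖ := norm_sub_le a b
  have h4 : ‖b‖ - ‖a‖ ≤ ‖a - b‖ := by
    have := norm_sub_norm_le b a
    rwa [norm_sub_rev] at this
  have h5 : 0 ≤ ‖u‖ := norm_nonneg u
  rw [ha, hb] at h3 h4
  constructor <;> linarith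

theorem annular_embeds (X : Set H) (p : H) (n : ℕ) (W : ℤ → Submodule ℝ H)
    (hfd : ∀ j, FiniteDimensional ℝ (W j)) (hn : ∀ j, finrank ℝ (W j) ≤ n)
    (hX : ∀ x ∈ X, ∀ j : ℤ, (2 : ℝ) ^ j ≤ ‖x - p‖ → ‖x - p‖ < (2 : ℝ) ^ (j + 1) → x - p ∈ W j) :
    BiLipEmbeds X (2 * n) 9 := by
  classical
  obtain ⟨G, hG1, hG2⟩ := exists_seq_int W hfd n hn
  let J : H → ℤ := fun u => Int.log 2 ‖u‖
  let F : H → EuclideanSpace ℝ (Fin (2 * n)) := fun u => G (J u) u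
  have hlow : ∀ u : H, u ≠ 0 → (2 : ℝ) ^ (J u) ≤ ‖u‖ := by
    intro u hu
    have := Int.zpow_log_le_self (b := 2) (r := ‖u‖) (by norm_num) (norm_pos_iff.2 hu)
    simpa [J] using this
  have hupp : ∀ u : H, ‖u‖ < (2 : ℝ) ^ (J u + 1) := by
    intro u
    have := Int.lt_zpow_succ_log_self (b := 2) (by norm_num) ‖u‖
    simpa [J] using this
  have hmem : ∀ x ∈ X, x - p ≠ 0 → x - p ∈ W (J (x - p)) := fun x hx h =>
    hX x hx _ (hlow _ h) (hupp _)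
  have hnorm : ∀ x ∈ X, ‖F (x - p)‖ = ‖x - p‖ := by
    intro x hx
    by_cases h : x - p = 0
    · simp [F, h]
    · exact hG1 _ _ (hmem x hx h)
  have main : ∀ x ∈ X, ∀ y ∈ X, ‖x - p‖ ≤ ‖y - p‖ →
      1 / 3 * ‖(x - p) - (y - p)‖ ≤ ‖F (x - p) - F (y - p)‖ ∧
        ‖F (x - p) - F (y - p)‖ ≤ 3 * ‖(x - p) - (y - p)‖ := by
    intro x hx y hy hxy
    set u := x - p with hu
    set v := y - p with hv
    by_cases hu0 : u = 0
    · apply far_estimate u v _ _ (hnorm x hx) (hnorm y hy)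
      simp [hu0]
    have hv0 : v ≠ 0 := by
      intro h
      rw [h, norm_zero] at hxy
      exact hu0 (norm_le_zero_iff.1 hxy)
    have hJ : J u ≤ J v := Int.log_mono_right (norm_pos_iff.2 hu0) hxy
    have hnn : 0 ≤ ‖u - v‖ := norm_nonneg _
    rcases eq_or_lt_of_le hJ with h | h
    · have h1 : F u - F v = G (J v) (u - v) := by
        change G (J u) u - G (J v) v = G (J v) (u - v)
        rw [h, (G (J v)).map_sub u v]
      have h2 : u - v ∈ W (J v) := by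
        apply Submodule.sub_mem _ _ (hmem y hy hv0)
        rw [← h]
        exact hmem x hx hu0
      rw [h1, hG1 _ _ h2]
      constructor <;> linarith
    · rcases eq_or_lt_of_le (Int.add_one_le_iff.2 h) with h' | h'
      · have h1 : ‖F u - F v‖ = ‖u - v‖ := by
          simp only [F]
          rw [← h']
          apply hG2 _ _ (hmem x hx hu0)
          rw [h']
          exact hmem y hy hv0
        rw [h1]
        constructor <;> linarith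
      · apply far_estimate u v _ _ (hnorm x hx) (hnorm y hy)
        have h1 : J u + 1 + 1 ≤ J v := Int.add_one_le_iff.2 h'
        have h2 : (2 : ℝ) ^ (J u + 1 + 1) ≤ (2 : ℝ) ^ (J v) :=
          zpow_le_zpow_right₀ (by norm_num) h1
        have h3 : (2 : ℝ) ^ (J u + 1 + 1) = (2 : ℝ) ^ (J u + 1) * 2 := zpow_add_one₀ (by norm_num) _
        have h4 := hupp u
        have h5 := hlow v hv0
        linarith
  refine ⟨fun x => F (x - p), 1 / 3, by norm_num, ?_⟩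
  intro x hx y hy
  have hd : dist x y = ‖(x - p) - (y - p)‖ := by
    rw [dist_eq_norm]; congr 1; abel
  rw [hd, dist_eq_norm]
  change 1 / 3 * ‖x - p - (y - p)‖ ≤ ‖F (x - p) - F (y - p)‖ ∧
    ‖F (x - p) - F (y - p)‖ ≤ 9 * (1 / 3) * ‖x - p - (y - p)‖
  rcases le_total ‖x - p‖ ‖y - p‖ with h | h
  · obtain ⟨h1, h2⟩ := main x hx y hy h
    exact ⟨h1, by linarith⟩
  · obtain ⟨h1, h2⟩ := main y hy x hx h
    rw [norm_sub_rev (x - p) (y - p), norm_sub_rev (F (x - p)) (F (y - p))]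
    exact ⟨h1, by linarith⟩

end Vale.Agent.P208
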