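import Mathlib

namespace Vale.Agent.P208

/-- The real separable Hilbert space of square-summable real sequences. -/
abbrev L2 : Type := lp (fun _ : ℕ => ℝ) 2

/-- `X` is doubling with constant at most `N`, in the weakest customary sense: for every centre
`x ∈ X` and radius `r > 0`, the part of `X` in the open ball of radius `r` about `x` is covered by
at most `N` closed balls of radius `r / 2` whose centres lie in `X`.  (This is implied both by the
open-ball and by the closed-ball version of the definition.) -/
def DoublingWith {E : Type*} [PseudoMetricSpace E] (X : Set E) (N : ℕ) : Prop :=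
  ∀ x ∈ X, ∀ r : ℝ, 0 < r → ∃ C : Finset E, (C : Set E) ⊆ X ∧ C.card ≤ N ∧
    X ∩ Metric.ball x r ⊆ ⋃ c ∈ C, Metric.closedBall c (r / 2)

/-- `X` admits a bi-Lipschitz embedding into `ℝ^k` (Euclidean norm) with distortion at most `D`:
there are a map `f` and a scale `a > 0` with `a d(x,y) ≤ ‖f x - f y‖ ≤ D a d(x,y)` on `X`. -/
def BiLipEmbeds {E : Type*} [PseudoMetricSpace E] (X : Set E) (k : ℕ) (D : ℝ) : Prop :=
  ∃ (f : E → EuclideanSpace ℝ (Fin k)) (a : ℝ), 0 < a ∧ ∀ x ∈ X, ∀ y ∈ X,
    a * dist x y ≤ dist (f x) (f y) ∧ dist (f x) (f y) ≤ D * a * dist x y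

end Vale.Agent.P208
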