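import Vale.Agent.P208.Annular

namespace Vale.Agent.P208

open Module

lemma cover_step {E : Type*} [PseudoMetricSpace E] {X : Set E} {N : ℕ} (hd : DoublingWith X N)
    (C : Finset E) (hC : (C : Set E) ⊆ X) (s : ℝ) (hs : 0 < s) (A : Set E) (hA : A ⊆ X)
    (hcov : A ⊆ ⋃ c ∈ C, Metric.ball c s) :
    ∃ C' : Finset E, (C' : Set E) ⊆ X ∧ C'.card ≤ C.card * N ∧
      A ⊆ ⋃ c ∈ C', Metric.closedBall c (s / 2) := by
  classical
  have h : ∀ c ∈ C, ∃ D : Finset E, (D : Set E) ⊆ X ∧ D.card ≤ N ∧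
      X ∩ Metric.ball c s ⊆ ⋃ c' ∈ D, Metric.closedBall c' (s / 2) :=
    fun c hc => hd c (hC hc) s hs
  choose! D hD using h
  refine ⟨C.biUnion D, ?_, Finset.card_biUnion_le_card_mul _ _ _ (fun c hc => (hD c hc).2.1), ?_⟩
  · intro x hx
    simp only [Finset.coe_biUnion, Set.mem_iUnion] at hx
    obtain ⟨c, hc, hx⟩ := hx
    exact (hD c hc).1 hx
  · intro x hx
    have := hcov hx
    simp only [Set.mem_iUnion] at this
    obtain ⟨c, hc, hxc⟩ := this
    have h2 := (hD c hc).2.2 ⟨hA hx, hxc⟩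
    simp only [Set.mem_iUnion] at h2 ⊢
    obtain ⟨c', hc', hx'⟩ := h2
    exact ⟨c', Finset.mem_biUnion.2 ⟨c, hc, hc'⟩, hx'⟩

lemma closed_cover_to_open {E : Type*} [PseudoMetricSpace E] {A : Set E} {C : Finset E} {s t : ℝ}
    (hst : s < t) (h : A ⊆ ⋃ c ∈ C, Metric.closedBall c s) : A ⊆ ⋃ c ∈ C, Metric.ball c t := by
  intro x hx
  have := h hx
  simp only [Set.mem_iUnion] at this ⊢
  obtain ⟨c, hc, hxc⟩ := this
  exact ⟨c, hc, Metric.closedBall_subset_ball hst hxc⟩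

lemma index_bound {E : Type*} [PseudoMetricSpace E] {X : Set E} {N : ℕ} (hd : DoublingWith X N)
    (x0 : E) (hx0 : x0 ∈ X) (R : ℝ) (hR : 0 < R) {ι : Type*} (I : Set ι) (pt : ι → E)
    (hpt : ∀ i ∈ I, pt i ∈ X ∧ dist (pt i) x0 < 4 * R)
    (hsep : ∀ i ∈ I, ∀ i' ∈ I, i ≠ i' → 1.21 * R < dist (pt i) (pt i')) :
    I.Finite ∧ I.ncard ≤ N ^ 3 := by
  classical
  let A : Set E := pt '' I
  have hA : A ⊆ X := by
    rintro _ ⟨i, hi, rfl⟩
    exact (hpt i hi).1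
  have h0 : A ⊆ ⋃ c ∈ ({x0} : Finset E), Metric.ball c (4 * R) := by
    rintro _ ⟨i, hi, rfl⟩
    simp only [Finset.mem_singleton, Set.iUnion_iUnion_eq_left, Metric.mem_ball]
    exact (hpt i hi).2
  obtain ⟨C1, hC1, hc1, hcov1⟩ := cover_step hd {x0} (by simpa using hx0) (4 * R) (by linarith) A hA h0
  have hcov1' : A ⊆ ⋃ c ∈ C1, Metric.ball c (2.2 * R) :=
    closed_cover_to_open (by linarith) hcov1
  obtain ⟨C2, hC2, hc2, hcov2⟩ := cover_step hd C1 hC1 (2.2 * R) (by linarith) A hA hcov1'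
  have hcov2' : A ⊆ ⋃ c ∈ C2, Metric.ball c (1.21 * R) :=
    closed_cover_to_open (by linarith) hcov2
  obtain ⟨C3, hC3, hc3, hcov3⟩ := cover_step hd C2 hC2 (1.21 * R) (by linarith) A hA hcov2'
  have hcard : C3.card ≤ N ^ 3 := by
    simp only [Finset.card_singleton, one_mul] at hc1
    calc C3.card ≤ C2.card * N := hc3
      _ ≤ (C1.card * N) * N := Nat.mul_le_mul_right _ hc2
      _ ≤ (N * N) * N := Nat.mul_le_mul_right _ (Nat.mul_le_mul_right _ hc1)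
      _ = N ^ 3 := by ring
  have hch : ∀ i ∈ I, ∃ c ∈ C3, pt i ∈ Metric.closedBall c (1.21 * R / 2) := by
    intro i hi
    have := hcov3 ⟨i, hi, rfl⟩
    simp only [Set.mem_iUnion] at this
    obtain ⟨c, hc, h⟩ := this
    exact ⟨c, hc, h⟩
  have : Nonempty E := ⟨x0⟩
  choose! φ hφ using hch
  have hmaps : ∀ i ∈ I, φ i ∈ (C3 : Set E) := fun i hi => (hφ i hi).1
  have hinj : Set.InjOn φ I := by
    intro i hi i' hi' h
    by_contra hne
    have h1 := (hφ i hi).2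
    have h2 := (hφ i' hi').2
    rw [← h] at h2
    rw [Metric.mem_closedBall] at h1 h2
    have h3 : dist (pt i) (pt i') ≤ dist (pt i) (φ i) + dist (pt i') (φ i) :=
      dist_triangle_right _ _ _
    have h4 := hsep i hi i' hi' hne
    linarith
  refine ⟨Set.Finite.of_injOn hmaps hinj C3.finite_toSet, ?_⟩
  calc I.ncard ≤ (C3 : Set E).ncard := Set.ncard_le_ncard_of_injOn φ hmaps hinj C3.finite_toSet
    _ = C3.card := Set.ncard_coe_finset C3
    _ ≤ N ^ 3 := hcard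

variable {H : Type*} [NormedAddCommGroup H] [InnerProductSpace ℝ H]

lemma finrank_finset_sup_le {ι : Type*} (s : Finset ι) (V : ι → Submodule ℝ H)
    (hfd : ∀ i, FiniteDimensional ℝ (V i)) (m : ℕ) (hm : ∀ i, finrank ℝ (V i) ≤ m) :
    FiniteDimensional ℝ (s.sup V : Submodule ℝ H) ∧
      finrank ℝ (s.sup V : Submodule ℝ H) ≤ s.card * m := by
  classical
  induction s using Finset.induction_on with
  | empty =>
    simp only [Finset.card_empty, zero_mul, nonpos_iff_eq_zero]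
    exact ⟨inferInstance, finrank_bot ℝ H⟩
  | insert a s ha ih =>
    obtain ⟨ih1, ih2⟩ := ih
    have := hfd a
    rw [Finset.sup_insert, Finset.card_insert_of_notMem ha]
    refine ⟨inferInstance, ?_⟩
    have h1 := Submodule.finrank_add_le_finrank_add_finrank (V a) (s.sup V)
    have h2 := hm a
    calc finrank ℝ (V a ⊔ s.sup V : Submodule ℝ H) ≤ finrank ℝ (V a) + finrank ℝ (s.sup V : Submodule ℝ H) := h1
      _ ≤ m + s.card * m := Nat.add_le_add h2 ih2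
      _ = (s.card + 1) * m := by ring

theorem orthogonal_family_embeds {ι : Type*} (V : ι → Submodule ℝ H) (m N : ℕ)
    (hfd : ∀ i, FiniteDimensional ℝ (V i)) (hm : ∀ i, finrank ℝ (V i) ≤ m)
    (horth : ∀ i j, i ≠ j → V i ⟂ V j) (X : Set H) (hX : X ⊆ ⋃ i, (V i : Set H))
    (hd : DoublingWith X N) : BiLipEmbeds X (2 * (N ^ 3 * m)) 9 := by
  classical
  let I : ℤ → Set ι := fun j => {i | ∃ x ∈ X, x ∈ V i ∧ (2 : ℝ) ^ j ≤ ‖x‖ ∧ ‖x‖ < (2 : ℝ) ^ (j + 1)}
  have hI : ∀ j, (I j).Finite ∧ (I j).ncard ≤ N ^ 3 := by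
    intro j
    rcases (I j).eq_empty_or_nonempty with h | ⟨i0, hi0⟩
    · rw [h]; simp
    have hch : ∀ i ∈ I j, ∃ x ∈ X, x ∈ V i ∧ (2 : ℝ) ^ j ≤ ‖x‖ ∧ ‖x‖ < (2 : ℝ) ^ (j + 1) :=
      fun i hi => hi
    choose! pt hpt using hch
    have hR : (0 : ℝ) < 2 ^ j := zpow_pos (by norm_num) j
    have hR2 : (2 : ℝ) ^ (j + 1) = 2 ^ j * 2 := zpow_add_one₀ (by norm_num) _
    apply index_bound hd (pt i0) (hpt i0 hi0).1 ((2 : ℝ) ^ j) hR (I j) pt
    · intro i hi
      refine ⟨(hpt i hi).1, ?_⟩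
      have h1 := (hpt i hi).2.2.2
      have h2 := (hpt i0 hi0).2.2.2
      have h3 : dist (pt i) (pt i0) ≤ ‖pt i‖ + ‖pt i0‖ := by
        rw [dist_eq_norm]; exact norm_sub_le _ _
      linarith
    · intro i hi i' hi' hne
      have h0 : inner ℝ (pt i) (pt i') = 0 :=
        (Submodule.isOrtho_iff_inner_eq.1 (horth i i' hne)) _ (hpt i hi).2.1 _ (hpt i' hi').2.1
      have h1 := norm_sub_sq_eq_norm_sq_add_norm_sq_real h0
      have h2 := (hpt i hi).2.2.1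
      have h3 := (hpt i' hi').2.2.1
      rw [dist_eq_norm]
      have h4 : 0 ≤ ‖pt i - pt i'‖ := norm_nonneg _
      by_contra hcon
      rw [not_lt] at hcon
      nlinarith
  let W : ℤ → Submodule ℝ H := fun j => (hI j).1.toFinset.sup V
  have hW : ∀ j, FiniteDimensional ℝ (W j) ∧ finrank ℝ (W j) ≤ N ^ 3 * m := by
    intro j
    obtain ⟨h1, h2⟩ := finrank_finset_sup_le (hI j).1.toFinset V hfd m hm
    refine ⟨h1, h2.trans (Nat.mul_le_mul_right _ ?_)⟩
    rw [← Set.ncard_eq_toFinset_card _ (hI j).1]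
    exact (hI j).2
  apply annular_embeds X 0 (N ^ 3 * m) W (fun j => (hW j).1) (fun j => (hW j).2)
  intro x hx j h1 h2
  rw [sub_zero] at h1 h2 ⊢
  obtain ⟨i, hi⟩ := Set.mem_iUnion.1 (hX hx)
  have hiI : i ∈ (hI j).1.toFinset := by
    rw [Set.Finite.mem_toFinset]
    exact ⟨x, hx, hi, h1, h2⟩
  exact (Finset.le_sup (f := V) hiI) hi

end Vale.Agent.P208
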