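import Vale.Agent.P208.Defs

set_option autoImplicit false

namespace Vale.Agent.P208

lemma coord_sub_le (x y : L2) (i : ℕ) : |x i - y i| ≤ dist x y := by
  have h := lp.norm_apply_le_norm (p := 2) (by norm_num) (x - y) i
  rw [dist_eq_norm]
  simpa [Real.norm_eq_abs] using h

lemma dist_sq_eq_sum (x y : L2) (s : Finset ℕ) (hs : ∀ i, i ∉ s → x i = y i) :
    dist x y ^ 2 = ∑ i ∈ s, (x i - y i) ^ 2 := by
  have h := lp.norm_rpow_eq_tsum (p := 2) (by norm_num) (x - y)
  rw [dist_eq_norm]
  have h2 : ((2 : ENNReal).toReal) = (2 : ℕ) := by norm_num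
  rw [h2, Real.rpow_natCast] at h
  rw [h, tsum_eq_sum (s := s)]
  · apply Finset.sum_congr rfl
    intro i _
    rw [Real.rpow_natCast, Real.norm_eq_abs, sq_abs]
    rfl
  · intro i hi
    have : (x - y) i = 0 := by
      change x i - y i = 0
      rw [hs i hi, sub_self]
    rw [this]
    simp

/-- The two-vector estimate behind the embedding of a single piece. -/
theorem piece_estimate (m : ℕ) (hm : 1 ≤ m) (x y : L2) (σx σy : Fin m → ℕ)
    (hσx : Function.Injective σx) (hσy : Function.Injective σy)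
    (hsx : ∀ i, x i ≠ 0 → i ∈ Set.range σx) (hsy : ∀ i, y i ≠ 0 → i ∈ Set.range σy)
    (hax : Antitone fun r => |x (σx r)|) (hay : Antitone fun r => |y (σy r)|)
    (hr : ∀ r, (x (σx r) = 0 ∧ y (σy r) = 0) ∨ σx r = σy r ∨
      (|x (σx r)| ≤ dist x y / (4 * m) ∧ |y (σy r)| ≤ dist x y / (4 * m)) ∨
      2 * |y (σy r)| ≤ |x (σx r)| ∨ 2 * |x (σx r)| ≤ |y (σy r)|) :
    dist x y ^ 2 ≤ 64 * m * ∑ r, (x (σx r) - y (σy r)) ^ 2 ∧
      ∑ r, (x (σx r) - y (σy r)) ^ 2 ≤ 16 * m * dist x y ^ 2 := by
  classical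
  set δ := dist x y with hδ
  have hδ0 : 0 ≤ δ := dist_nonneg
  have hm' : (1 : ℝ) ≤ m := by exact_mod_cast hm
  set T := ∑ r, (x (σx r) - y (σy r)) ^ 2 with hT
  have hTr : ∀ r, (x (σx r) - y (σy r)) ^ 2 ≤ T :=
    fun r => Finset.single_le_sum (f := fun r => (x (σx r) - y (σy r)) ^ 2)
      (fun _ _ => sq_nonneg _) (Finset.mem_univ r)
  have hT0 : 0 ≤ T := Finset.sum_nonneg fun _ _ => sq_nonneg _
  -- pigeonhole: a big drop at the same rank forces a big distance
  have pigeon : ∀ (x y : L2) (σx σy : Fin m → ℕ), Function.Injective σx →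
      (∀ i, y i ≠ 0 → i ∈ Set.range σy) → (Antitone fun r => |x (σx r)|) →
      (Antitone fun r => |y (σy r)|) → ∀ r, 2 * |y (σy r)| ≤ |x (σx r)| →
      |x (σx r)| ≤ 2 * dist x y := by
    intro x y σx σy hσx hsy hax hay r h
    by_contra hcon
    rw [not_le] at hcon
    have hbig : ∀ s ∈ Finset.Iic r, ∃ t, σy t = σx s ∧ t ∈ Finset.Iio r := by
      intro s hs
      have hs' : s ≤ r := Finset.mem_Iic.1 hs
      have h1 : |x (σx r)| ≤ |x (σx s)| := hax hs'
      have h2 := coord_sub_le x y (σx s)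
      have h3 : |x (σx s)| - |y (σx s)| ≤ |x (σx s) - y (σx s)| := abs_sub_abs_le_abs_sub _ _
      have h4 : |y (σy r)| < |y (σx s)| := by linarith
      have h5 : y (σx s) ≠ 0 := by
        intro h0
        rw [h0, abs_zero] at h4
        exact absurd h4 (not_lt.2 (abs_nonneg _))
      obtain ⟨t, ht⟩ := hsy _ h5
      refine ⟨t, ht, Finset.mem_Iio.2 ?_⟩
      by_contra hrt
      rw [not_lt] at hrt
      have h6 : |y (σy t)| ≤ |y (σy r)| := hay hrt
      rw [ht] at h6
      linarith
    choose! t ht using hbig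
    have hcard := Finset.card_le_card_of_injOn t (fun s hs => (ht s hs).2) (by
      intro s hs s' hs' hss
      apply hσx
      rw [← (ht s hs).1, ← (ht s' hs').1, hss])
    rw [Fin.card_Iic, Fin.card_Iio] at hcard
    omega
  have hdc : dist y x = δ := by rw [dist_comm]
  -- bounds at a rank of type Fb
  have hFb1 : ∀ r, 2 * |y (σy r)| ≤ |x (σx r)| → |x (σx r)| ≤ 2 * δ :=
    fun r h => pigeon x y σx σy hσx hsy hax hay r h
  have hFb2 : ∀ r, 2 * |x (σx r)| ≤ |y (σy r)| → |y (σy r)| ≤ 2 * δ := by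
    intro r h
    have := pigeon y x σy σx hσy hsx hay hax r h
    rwa [hdc] at this
  constructor
  · -- lower bound
    set B := 4 * T + δ ^ 2 / (16 * m ^ 2) with hB
    have hB0 : 0 ≤ B := by positivity
    have hTB : T ≤ B := by
      have : 0 ≤ δ ^ 2 / (16 * (m : ℝ) ^ 2) := by positivity
      linarith
    have hFa : ∀ v : ℝ, |v| ≤ δ / (4 * m) → v ^ 2 ≤ B := by
      intro v hv
      have h1 : v ^ 2 ≤ (δ / (4 * m)) ^ 2 := by
        rw [← sq_abs]
        gcongr
      have h2 : (δ / (4 * m)) ^ 2 = δ ^ 2 / (16 * (m : ℝ) ^ 2) := by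
        rw [div_pow]; ring
      rw [h2] at h1
      linarith
    have hrank : ∀ r, σx r ≠ σy r → x (σx r) ^ 2 ≤ B ∧ y (σy r) ^ 2 ≤ B := by
      intro r hne
      have hTr' := hTr r
      rcases hr r with ⟨h1, h2⟩ | h | ⟨h1, h2⟩ | h | h
      · rw [h1, h2]; simpa using hB0
      · exact absurd h hne
      · exact ⟨hFa _ h1, hFa _ h2⟩
      · have h3 : |x (σx r)| - |y (σy r)| ≤ |x (σx r) - y (σy r)| := abs_sub_abs_le_abs_sub _ _
        have h4 : |x (σx r)| ≤ 2 * |x (σx r) - y (σy r)| := by linarith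
        have h5 : x (σx r) ^ 2 ≤ 4 * (x (σx r) - y (σy r)) ^ 2 := by
          rw [← sq_abs, ← sq_abs (x (σx r) - y (σy r))]
          nlinarith [abs_nonneg (x (σx r)), abs_nonneg (x (σx r) - y (σy r))]
        have h6 : y (σy r) ^ 2 ≤ x (σx r) ^ 2 := by
          rw [← sq_abs, ← sq_abs (x (σx r))]
          nlinarith [abs_nonneg (x (σx r)), abs_nonneg (y (σy r))]
        have : 0 ≤ δ ^ 2 / (16 * (m : ℝ) ^ 2) := by positivity
        constructor <;> linarith
      · have h3 : |y (σy r)| - |x (σx r)| ≤ |y (σy r) - x (σx r)| := abs_sub_abs_le_abs_sub _ _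
        rw [abs_sub_comm] at h3
        have h4 : |y (σy r)| ≤ 2 * |x (σx r) - y (σy r)| := by linarith
        have h5 : y (σy r) ^ 2 ≤ 4 * (x (σx r) - y (σy r)) ^ 2 := by
          rw [← sq_abs, ← sq_abs (x (σx r) - y (σy r))]
          nlinarith [abs_nonneg (y (σy r)), abs_nonneg (x (σx r) - y (σy r))]
        have h6 : x (σx r) ^ 2 ≤ y (σy r) ^ 2 := by
          rw [← sq_abs, ← sq_abs (y (σy r))]
          nlinarith [abs_nonneg (x (σx r)), abs_nonneg (y (σy r))]
        have : 0 ≤ δ ^ 2 / (16 * (m : ℝ) ^ 2) := by positivity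
        constructor <;> linarith
    have hlabel : ∀ l, (x l - y l) ^ 2 ≤ 4 * B := by
      intro l
      by_cases hS : ∃ r, σx r = l ∧ σy r = l
      · obtain ⟨r, h1, h2⟩ := hS
        have := hTr r
        rw [h1, h2] at this
        linarith
      · have hx : x l ^ 2 ≤ B := by
          by_cases h0 : x l = 0
          · rw [h0]; simpa using hB0
          · obtain ⟨r, rfl⟩ := hsx l h0
            exact (hrank r (fun h => hS ⟨r, rfl, h.symm⟩)).1
        have hy : y l ^ 2 ≤ B := by
          by_cases h0 : y l = 0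
          · rw [h0]; simpa using hB0
          · obtain ⟨r, rfl⟩ := hsy l h0
            exact (hrank r (fun h => hS ⟨r, h, rfl⟩)).2
        nlinarith [sq_nonneg (x l + y l)]
    let s : Finset ℕ := Finset.univ.image σx ∪ Finset.univ.image σy
    have hscard : (s.card : ℝ) ≤ 2 * m := by
      have h1 : s.card ≤ (Finset.univ.image σx).card + (Finset.univ.image σy).card :=
        Finset.card_union_le _ _
      have h2 : (Finset.univ.image σx).card ≤ m := by
        simpa using (Finset.card_image_le (s := (Finset.univ : Finset (Fin m))) (f := σx))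
      have h3 : (Finset.univ.image σy).card ≤ m := by
        simpa using (Finset.card_image_le (s := (Finset.univ : Finset (Fin m))) (f := σy))
      have : s.card ≤ 2 * m := by omega
      exact_mod_cast this
    have hsum : δ ^ 2 = ∑ i ∈ s, (x i - y i) ^ 2 := by
      apply dist_sq_eq_sum
      intro i hi
      have h1 : x i = 0 := by
        by_contra h0
        obtain ⟨r, rfl⟩ := hsx i h0
        exact hi (Finset.mem_union_left _ (Finset.mem_image_of_mem _ (Finset.mem_univ r)))
      have h2 : y i = 0 := by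
        by_contra h0
        obtain ⟨r, rfl⟩ := hsy i h0
        exact hi (Finset.mem_union_right _ (Finset.mem_image_of_mem _ (Finset.mem_univ r)))
      rw [h1, h2]
    have h1 : δ ^ 2 ≤ s.card * (4 * B) := by
      rw [hsum]
      calc ∑ i ∈ s, (x i - y i) ^ 2 ≤ ∑ _i ∈ s, 4 * B := Finset.sum_le_sum fun i _ => hlabel i
        _ = s.card * (4 * B) := by rw [Finset.sum_const, nsmul_eq_mul]
    have h2 : δ ^ 2 ≤ 2 * m * (4 * B) := h1.trans (by gcongr)
    have h3 : 2 * (m : ℝ) * (4 * B) = 32 * m * T + δ ^ 2 / (2 * m) := by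
      rw [hB]; field_simp; ring
    have h4 : δ ^ 2 / (2 * m) ≤ δ ^ 2 / 2 := by
      apply div_le_div_of_nonneg_left (by positivity) (by norm_num)
      linarith
    rw [h3] at h2
    linarith
  · -- upper bound
    have hterm : ∀ r, (x (σx r) - y (σy r)) ^ 2 ≤ 16 * δ ^ 2 := by
      intro r
      have key : |x (σx r) - y (σy r)| ≤ 4 * δ := by
        have htri : |x (σx r) - y (σy r)| ≤ |x (σx r)| + |y (σy r)| := abs_sub _ _
        rcases hr r with ⟨h1, h2⟩ | h | ⟨h1, h2⟩ | h | h
        · rw [h1, h2]; simpa using hδ0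
        · rw [← h]
          have := coord_sub_le x y (σx r)
          linarith
        · have h3 : δ / (4 * m) ≤ δ := by
            apply div_le_self hδ0
            linarith
          linarith
        · have := hFb1 r h
          have h0 := abs_nonneg (y (σy r))
          linarith
        · have := hFb2 r h
          have h0 := abs_nonneg (x (σx r))
          linarith
      rw [← sq_abs]
      nlinarith [abs_nonneg (x (σx r) - y (σy r))]
    calc T ≤ ∑ _r : Fin m, 16 * δ ^ 2 := Finset.sum_le_sum fun r _ => hterm r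
      _ = 16 * m * δ ^ 2 := by
          rw [Finset.sum_const, Finset.card_univ, Fintype.card_fin, nsmul_eq_mul]; ring

end Vale.Agent.P208
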