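import Vale.Agent.P208.Defs

namespace Vale.Agent.P208

/-- `x ∈ ℓ²` is `m`-sparse: at most `m` of its coordinates (with respect to the standard
orthonormal basis) are nonzero. -/
def IsSparse (m : ℕ) (x : L2) : Prop := ∃ s : Finset ℕ, s.card ≤ m ∧ ∀ i, i ∉ s → x i = 0

end Vale.Agent.P208
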