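import Vale.Agent.P208.Ortho

set_option autoImplicit false

namespace Vale.Agent.P208

open Module NNReal

/-- Bi-Lipschitz maps into any finite-dimensional real inner product space give `BiLipEmbeds`. -/
lemma biLipEmbeds_of_fd {E : Type*} [PseudoMetricSpace E] (X : Set E) (V : Type*)
    [NormedAddCommGroup V] [InnerProductSpace ℝ V] [FiniteDimensional ℝ V] (F : E → V)
    (a D : ℝ) (ha : 0 < a)
    (h : ∀ x ∈ X, ∀ y ∈ X, a * dist x y ≤ dist (F x) (F y) ∧ dist (F x) (F y) ≤ D * a * dist x y) :
    BiLipEmbeds X (finrank ℝ V) D := by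
  refine ⟨fun x => (stdOrthonormalBasis ℝ V).repr (F x), a, ha, fun x hx y hy => ?_⟩
  rw [LinearIsometryEquiv.dist_map]
  exact h x hx y hy

/-- The target space of the gluing map. -/
abbrev GlueSpace (C : Type) [Fintype C] (k : ℕ) : Type :=
  PiLp 2 (fun _ : C => WithLp 2 (EuclideanSpace ℝ (Fin k) × ℝ))

theorem union_embeds {E : Type*} [PseudoMetricSpace E] (C : Type) [Fintype C] (k : ℕ)
    (lo : ℝ) (hi : ℝ≥0) (hlo : 0 < lo) (P : C → Set E) (f : C → E → EuclideanSpace ℝ (Fin k))
    (hf : ∀ c, ∀ x ∈ P c, ∀ y ∈ P c,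
      lo * dist x y ≤ dist (f c x) (f c y) ∧ dist (f c x) (f c y) ≤ hi * dist x y) :
    BiLipEmbeds (⋃ c, P c) (finrank ℝ (GlueSpace C k))
      (Real.sqrt (Fintype.card C * (k * (hi : ℝ) ^ 2 + 1)) /
        min (lo / (2 * (lo + Real.sqrt (k * (hi : ℝ) ^ 2)))) (lo / 2)) := by
  classical
  -- coordinatewise Lipschitz extensions
  have hext : ∀ c (i : Fin k), ∃ g : E → ℝ, LipschitzWith hi g ∧ Set.EqOn (fun x => f c x i) g (P c) := by
    intro c i
    apply LipschitzOnWith.extend_real
    apply LipschitzOnWith.of_dist_le_mul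
    intro x hx y hy
    calc dist (f c x i) (f c y i) = ‖(f c x - f c y) i‖ := by
          rw [Real.dist_eq, Real.norm_eq_abs]; rfl
      _ ≤ ‖f c x - f c y‖ := PiLp.norm_apply_le _ i
      _ = dist (f c x) (f c y) := (dist_eq_norm _ _).symm
      _ ≤ hi * dist x y := (hf c x hx y hy).2
  choose g hgL hgE using hext
  let G : C → E → EuclideanSpace ℝ (Fin k) := fun c z => WithLp.toLp 2 (fun i => g c i z)
  have hGf : ∀ c, ∀ x ∈ P c, G c x = f c x := by
    intro c x hx
    ext i
    exact (hgE c i hx).symm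
  have hGL : ∀ c z w, dist (G c z) (G c w) ^ 2 ≤ k * (hi : ℝ) ^ 2 * dist z w ^ 2 := by
    intro c z w
    rw [dist_eq_norm, EuclideanSpace.norm_sq_eq]
    calc ∑ i, ‖(G c z - G c w) i‖ ^ 2 ≤ ∑ _i : Fin k, ((hi : ℝ) * dist z w) ^ 2 := by
          apply Finset.sum_le_sum
          intro i _
          have h1 : ‖(G c z - G c w) i‖ = dist (g c i z) (g c i w) := by
            rw [Real.dist_eq, Real.norm_eq_abs]; rfl
          rw [h1]
          have h2 := (hgL c i).dist_le_mul z w
          gcongr
      _ = k * (hi : ℝ) ^ 2 * dist z w ^ 2 := by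
          rw [Finset.sum_const, Finset.card_univ, Fintype.card_fin, nsmul_eq_mul]; ring
  set L1 : ℝ := Real.sqrt (k * (hi : ℝ) ^ 2) with hL1
  have hL1nn : 0 ≤ L1 := Real.sqrt_nonneg _
  have hGL' : ∀ c z w, dist (G c z) (G c w) ≤ L1 * dist z w := by
    intro c z w
    have h := hGL c z w
    have h2 : (L1 * dist z w) ^ 2 = k * (hi : ℝ) ^ 2 * dist z w ^ 2 := by
      rw [mul_pow, hL1, Real.sq_sqrt (by positivity)]
    rw [← h2] at h
    exact (pow_le_pow_iff_left₀ dist_nonneg (by positivity) (by norm_num)).1 h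
  let F : E → GlueSpace C k := fun z =>
    WithLp.toLp 2 (fun c => WithLp.toLp 2 (G c z, Metric.infDist z (P c)))
  have hFc : ∀ z w c, ‖(F z - F w) c‖ ^ 2 =
      dist (G c z) (G c w) ^ 2 + (Metric.infDist z (P c) - Metric.infDist w (P c)) ^ 2 := by
    intro z w c
    rw [WithLp.prod_norm_sq_eq_of_L2, dist_eq_norm]
    congr 1
    rw [Real.norm_eq_abs, sq_abs]
    rfl
  set ε : ℝ := lo / (2 * (lo + L1)) with hε
  have hεpos : 0 < ε := by positivity
  set a : ℝ := min ε (lo / 2) with ha
  have hapos : 0 < a := lt_min hεpos (by positivity)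
  set U : ℝ := Real.sqrt (Fintype.card C * (k * (hi : ℝ) ^ 2 + 1)) with hU
  apply biLipEmbeds_of_fd _ (GlueSpace C k) F a (U / a) hapos
  have upper : ∀ z w, dist (F z) (F w) ≤ U * dist z w := by
    intro z w
    have h1 : dist (F z) (F w) ^ 2 ≤ (U * dist z w) ^ 2 := by
      rw [mul_pow, hU, Real.sq_sqrt (by positivity), dist_eq_norm, PiLp.norm_sq_eq_of_L2]
      calc ∑ c, ‖(F z - F w) c‖ ^ 2 ≤ ∑ _c : C, (k * (hi : ℝ) ^ 2 + 1) * dist z w ^ 2 := by
            apply Finset.sum_le_sum
            intro c _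
            rw [hFc]
            have h2 := hGL c z w
            have h3 : |Metric.infDist z (P c) - Metric.infDist w (P c)| ≤ dist z w := by
              have := (Metric.lipschitz_infDist_pt (P c)).dist_le_mul z w
              simpa [Real.dist_eq] using this
            have h4 : (Metric.infDist z (P c) - Metric.infDist w (P c)) ^ 2 ≤ dist z w ^ 2 := by
              rw [← sq_abs]
              gcongr
            linarith
        _ = Fintype.card C * (k * (hi : ℝ) ^ 2 + 1) * dist z w ^ 2 := by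
            rw [Finset.sum_const, Finset.card_univ, nsmul_eq_mul]; ring
    exact (pow_le_pow_iff_left₀ dist_nonneg (by positivity) (by norm_num)).1 h1
  have lower : ∀ c, ∀ x ∈ P c, ∀ y, a * dist x y ≤ dist (F x) (F y) := by
    intro c x hx y
    have hblock : ‖(F x - F y) c‖ ≤ dist (F x) (F y) := by
      rw [dist_eq_norm]; exact PiLp.norm_apply_le _ c
    have hb1 : dist (G c x) (G c y) ≤ ‖(F x - F y) c‖ := by
      have := hFc x y c
      have h2 : dist (G c x) (G c y) ^ 2 ≤ ‖(F x - F y) c‖ ^ 2 := by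
        rw [this]; nlinarith [sq_nonneg (Metric.infDist x (P c) - Metric.infDist y (P c))]
      exact (pow_le_pow_iff_left₀ dist_nonneg (norm_nonneg _) (by norm_num)).1 h2
    have hb2 : |Metric.infDist x (P c) - Metric.infDist y (P c)| ≤ ‖(F x - F y) c‖ := by
      have := hFc x y c
      have h2 : |Metric.infDist x (P c) - Metric.infDist y (P c)| ^ 2 ≤ ‖(F x - F y) c‖ ^ 2 := by
        rw [this, sq_abs]; nlinarith [sq_nonneg (dist (G c x) (G c y))]
      exact (pow_le_pow_iff_left₀ (abs_nonneg _) (norm_nonneg _) (by norm_num)).1 h2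
    have hd : 0 ≤ dist x y := dist_nonneg
    by_cases hρ : ε * dist x y ≤ Metric.infDist y (P c)
    · rw [Metric.infDist_zero_of_mem hx, zero_sub, abs_neg,
        abs_of_nonneg Metric.infDist_nonneg] at hb2
      calc a * dist x y ≤ ε * dist x y := by gcongr; exact min_le_left _ _
        _ ≤ _ := hρ.trans (hb2.trans hblock)
    · rw [not_le] at hρ
      obtain ⟨a', ha', hya'⟩ := (Metric.infDist_lt_iff ⟨x, hx⟩).1 hρ
      have h1 : lo * dist x a' ≤ dist (G c x) (G c a') := by
        rw [hGf c x hx, hGf c a' ha']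
        exact (hf c x hx a' ha').1
      have h2 : dist (G c a') (G c y) ≤ L1 * dist a' y := hGL' c a' y
      have h3 : dist (G c x) (G c a') ≤ dist (G c x) (G c y) + dist (G c a') (G c y) :=
        dist_triangle_right _ _ _
      have h4 : dist x y ≤ dist x a' + dist y a' := dist_triangle_right _ _ _
      rw [dist_comm a' y] at h2
      have h5 : (lo + L1) * (ε * dist x y) = lo / 2 * dist x y := by
        rw [hε]; field_simp
      have h6 : lo / 2 * dist x y ≤ dist (G c x) (G c y) := by
        have h7 : lo * dist x y ≤ lo * dist x a' + lo * dist y a' := by nlinarith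
        have h8 : (lo + L1) * dist y a' ≤ (lo + L1) * (ε * dist x y) := by
          gcongr
        nlinarith
      calc a * dist x y ≤ lo / 2 * dist x y := by gcongr; exact min_le_right _ _
        _ ≤ _ := h6.trans (hb1.trans hblock)
  intro x hx y _
  obtain ⟨c, hc⟩ := Set.mem_iUnion.1 hx
  refine ⟨lower c x hc y, ?_⟩
  rw [div_mul_cancel₀ _ hapos.ne']
  exact upper x y

end Vale.Agent.P208
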