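import Vale.Agent.P208.Tools
import Vale.Agent.P208.Union
import Vale.Agent.P208.SparseCore
import Vale.Agent.P208.SparseDefs

set_option autoImplicit false

namespace Vale.Agent.P208

open Module NNReal

lemma sorted_enum (m : ℕ) (x : L2) (hx : IsSparse m x) :
    ∃ σ : Fin m → ℕ, Function.Injective σ ∧ (∀ i, x i ≠ 0 → i ∈ Set.range σ) ∧
      Antitone fun r => |x (σ r)| := by
  classical
  obtain ⟨s, hs, hs0⟩ := hx
  obtain ⟨t, hst, ht⟩ := Infinite.exists_superset_card_eq s m hs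
  let e0 : Fin m ≃ t := (t.equivFinOfCardEq ht).symm
  let f : Fin m → ℝ := fun r => -|x (e0 r)|
  let τ := Tuple.sort f
  refine ⟨fun r => e0 (τ r), ?_, ?_, ?_⟩
  · intro r r' h
    exact τ.injective (e0.injective (Subtype.ext h))
  · intro i hi
    have his : i ∈ t := by
      apply hst
      by_contra h
      exact hi (hs0 i h)
    refine ⟨τ.symm (e0.symm ⟨i, his⟩), ?_⟩
    simp
  · intro r r' h
    have := Tuple.monotone_sort f h
    simp only [Function.comp, f] at this
    change |x (e0 (τ r'))| ≤ |x (e0 (τ r))|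
    linarith

lemma exists_injOn_fin {α : Type*} (S : Finset α) (q : ℕ) (h : S.card < q) :
    ∃ g : α → Fin q, Set.InjOn g S := by
  classical
  have hq : 0 < q := lt_of_le_of_lt (Nat.zero_le _) h
  refine ⟨fun a => if ha : a ∈ S then Fin.castLE h.le (S.equivFin ⟨a, ha⟩) else ⟨0, hq⟩, ?_⟩
  intro a ha b hb hab
  simp only [Finset.mem_coe] at ha hb
  simp only [dif_pos ha, dif_pos hb] at hab
  have := S.equivFin.injective (Fin.castLE_injective h.le hab)
  exact congrArg Subtype.val this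


lemma log_bounds (v : ℝ) (hv : v ≠ 0) :
    (2 : ℝ) ^ (Int.log 2 |v|) ≤ |v| ∧ |v| < (2 : ℝ) ^ (Int.log 2 |v| + 1) := by
  constructor
  · have := Int.zpow_log_le_self (b := 2) (r := |v|) (by norm_num) (abs_pos.2 hv)
    simpa using this
  · have := Int.lt_zpow_succ_log_self (b := 2) (by norm_num) |v|
    simpa using this

theorem sparse_embeds_aux (m : ℕ) (hm : 1 ≤ m) (N : ℕ) :
    ∃ (k : ℕ) (D : ℝ), ∀ X : Set L2, (∀ x ∈ X, IsSparse m x) → DoublingWith X N →
      BiLipEmbeds X k D := by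
  classical
  have hm' : (1 : ℝ) ≤ m := by exact_mod_cast hm
  obtain ⟨a, ha⟩ : ∃ a : ℕ, (3 / 5 : ℝ) ^ a < 1 / (2 * (8 * m + 3)) :=
    exists_pow_lt_of_lt_one (by positivity) (by norm_num)
  let q2 := N ^ a + 1
  let q3 := N ^ 3 * m + 1
  let C := Fin m → Option (Bool × Fin q2 × Fin q3)
  let lo : ℝ := (Real.sqrt (64 * m))⁻¹
  let hi : ℝ≥0 := NNReal.sqrt (16 * m)
  refine ⟨finrank ℝ (GlueSpace C m), Real.sqrt (Fintype.card C * (m * (hi : ℝ) ^ 2 + 1)) /
        min (lo / (2 * (lo + Real.sqrt (m * (hi : ℝ) ^ 2)))) (lo / 2), fun X hsp hd => ?_⟩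
  -- sorted enumerations of the supports
  have hσ : ∀ x ∈ X, ∃ σ : Fin m → ℕ, Function.Injective σ ∧ (∀ i, x i ≠ 0 → i ∈ Set.range σ) ∧
      Antitone fun r => |x (σ r)| := fun x hx => sorted_enum m x (hsp x hx)
  choose! σ hσ1 hσ2 hσ3 using hσ
  -- nets at all dyadic scales
  have hnet : ∀ j : ℤ, ∃ Nt : Set L2, Nt ⊆ X ∧
      (∀ a ∈ Nt, ∀ b ∈ Nt, a ≠ b → (2 : ℝ) ^ j ≤ dist a b) ∧
      ∀ x ∈ X, ∃ n ∈ Nt, dist x n < (2 : ℝ) ^ j :=
    fun j => exists_net X _ (zpow_pos (by norm_num) j)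
  choose Nt hNtX hNtsep hNtcov using hnet
  choose! π hπ1 hπ2 using hNtcov
  -- colouring of the nets
  have hκ2 : ∀ j : ℤ, ∃ κ : L2 → Fin q2, ∀ n n',
      (n ∈ Nt j ∧ n' ∈ Nt j ∧ n ≠ n' ∧ dist n n' ≤ (8 * m + 2) * (2 : ℝ) ^ j) → κ n ≠ κ n' := by
    intro j
    have h2j : (0 : ℝ) < 2 ^ j := zpow_pos (by norm_num) j
    apply exists_coloring
      (fun n n' => n ∈ Nt j ∧ n' ∈ Nt j ∧ n ≠ n' ∧ dist n n' ≤ (8 * m + 2) * (2 : ℝ) ^ j)
    · rintro u v ⟨h1, h2, h3, h4⟩
      exact ⟨h2, h1, h3.symm, by rwa [dist_comm]⟩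
    · rintro v ⟨-, -, h, -⟩
      exact h rfl
    · intro n
      by_cases hn : n ∈ Nt j
      · have := index_packing hd a n (hNtX j hn) ((8 * m + 3) * (2 : ℝ) ^ j) (by positivity)
          ((2 : ℝ) ^ j) (by
            have h1 : (8 * (m : ℝ) + 3) * (3 / 5 : ℝ) ^ a < 1 / 2 := by
              have h3 : (0 : ℝ) < 8 * m + 3 := by positivity
              calc (8 * (m : ℝ) + 3) * (3 / 5 : ℝ) ^ a
                  < (8 * (m : ℝ) + 3) * (1 / (2 * (8 * m + 3))) := by gcongr
                _ = 1 / 2 := by field_simp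
            nlinarith)
          {n' | n ∈ Nt j ∧ n' ∈ Nt j ∧ n ≠ n' ∧ dist n n' ≤ (8 * m + 2) * (2 : ℝ) ^ j} id
          (by
            rintro n' ⟨-, h2, -, h4⟩
            refine ⟨hNtX j h2, ?_⟩
            simp only [id]
            rw [dist_comm]
            nlinarith)
          (by
            rintro n' ⟨-, h2, -, -⟩ n'' ⟨-, h2', -, -⟩ hne
            exact hNtsep j n' h2 n'' h2' hne)
        exact ⟨this.1, Nat.lt_succ_of_le this.2⟩
      · have : {n' | n ∈ Nt j ∧ n' ∈ Nt j ∧ n ≠ n' ∧ dist n n' ≤ (8 * m + 2) * (2 : ℝ) ^ j} = ∅ := by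
          ext n'
          simp [hn]
        rw [this]
        simp [q2]
  choose κ2 hκ2 using hκ2
  -- enumeration of the labels active at a net point
  let A : ℤ → L2 → Set ℕ := fun j n => {i | ∃ x ∈ X, x i ≠ 0 ∧ Int.log 2 |x i| = j ∧ π j x = n}
  have hκ3 : ∀ j n, ∃ g : ℕ → Fin q3, Set.InjOn g (A j n) := by
    intro j n
    have h2j : (0 : ℝ) < 2 ^ j := zpow_pos (by norm_num) j
    rcases (A j n).eq_empty_or_nonempty with h | ⟨i0, x0, hx0, -, -, hn0⟩
    · rw [h]
      exact ⟨fun _ => ⟨0, Nat.succ_pos _⟩, Set.injOn_empty _⟩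
    have hnX : n ∈ X := by
      rw [← hn0]; exact hNtX j (hπ1 j x0 hx0)
    obtain ⟨Cc, -, hCcard, hCcov⟩ := cover_iter hd 3 n hnX (2 * (2 : ℝ) ^ j) (by positivity)
    -- a representative of `X` in each small ball, with its support
    have hrep : ∀ c : L2, ∃ s : Finset ℕ, s.card ≤ m ∧
        ∀ x ∈ X, x ∈ Metric.ball c (2 * (2 : ℝ) ^ j * (3 / 5) ^ 3) → ∀ i, (2 : ℝ) ^ j ≤ |x i| →
          i ∈ s := by
      intro c
      by_cases hex : ∃ z ∈ X, z ∈ Metric.ball c (2 * (2 : ℝ) ^ j * (3 / 5) ^ 3)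
      · obtain ⟨z, hzX, hz⟩ := hex
        obtain ⟨s, hs, hs0⟩ := hsp z hzX
        refine ⟨s, hs, fun x _ hx i hi => ?_⟩
        by_contra his
        have h1 := coord_sub_le x z i
        rw [hs0 i his, sub_zero] at h1
        rw [Metric.mem_ball] at hx hz
        have h2 : dist x z ≤ dist x c + dist z c := dist_triangle_right _ _ _
        nlinarith
      · exact ⟨∅, by simp, fun x hx hxc => absurd ⟨x, hx, hxc⟩ hex⟩
    choose s hs1 hs2 using hrep
    have hsub : A j n ⊆ (Cc.biUnion s : Finset ℕ) := by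
      rintro i ⟨x, hx, hxi, hJ, hn⟩
      have h1 : x ∈ X ∩ Metric.ball n (2 * (2 : ℝ) ^ j) := by
        refine ⟨hx, ?_⟩
        rw [Metric.mem_ball, ← hn]
        have := hπ2 j x hx
        linarith
      have h2 := hCcov h1
      simp only [Set.mem_iUnion] at h2
      obtain ⟨c, hc, hxc⟩ := h2
      have h3 : (2 : ℝ) ^ j ≤ |x i| := by
        rw [← hJ]; exact (log_bounds _ hxi).1
      exact Finset.mem_coe.2 (Finset.mem_biUnion.2 ⟨c, hc, hs2 c x hx hxc i h3⟩)
    have hcard : (Cc.biUnion s).card < q3 := by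
      apply Nat.lt_succ_of_le
      calc (Cc.biUnion s).card ≤ Cc.card * m := Finset.card_biUnion_le_card_mul _ _ _ fun c _ => hs1 c
        _ ≤ N ^ 3 * m := Nat.mul_le_mul_right _ hCcard
    obtain ⟨g, hg⟩ := exists_injOn_fin (Cc.biUnion s) q3 hcard
    exact ⟨g, hg.mono hsub⟩
  choose κ3 hκ3 using hκ3
  let colr : L2 → ℕ → Bool × Fin q2 × Fin q3 := fun x i =>
    (decide (Int.log 2 |x i| % 2 = 0), κ2 (Int.log 2 |x i|) (π (Int.log 2 |x i|) x),
      κ3 (Int.log 2 |x i|) (π (Int.log 2 |x i|) x) i)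
  let cidx : L2 → C := fun x r => if x (σ x r) = 0 then none else some (colr x (σ x r))
  let P : C → Set L2 := fun c => {x | x ∈ X ∧ cidx x = c}
  let Φ : L2 → EuclideanSpace ℝ (Fin m) := fun x => WithLp.toLp 2 (fun r => x (σ x r))
  have hΦ : ∀ x y, dist (Φ x) (Φ y) ^ 2 = ∑ r, (x (σ x r) - y (σ y r)) ^ 2 := by
    intro x y
    rw [dist_eq_norm, EuclideanSpace.norm_sq_eq]
    apply Finset.sum_congr rfl
    intro r _
    rw [Real.norm_eq_abs, sq_abs]
    rfl
  have hmain : ∀ c, ∀ x ∈ P c, ∀ y ∈ P c,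
      lo * dist x y ≤ dist (Φ x) (Φ y) ∧ dist (Φ x) (Φ y) ≤ hi * dist x y := by
    rintro c x ⟨hx, hcx⟩ y ⟨hy, hcy⟩
    have hc : cidx x = cidx y := hcx.trans hcy.symm
    have hest := piece_estimate m hm x y (σ x) (σ y) (hσ1 x hx) (hσ1 y hy) (hσ2 x hx) (hσ2 y hy)
      (hσ3 x hx) (hσ3 y hy) (by
        intro r
        have hcr : cidx x r = cidx y r := congrFun hc r
        by_cases hx0 : x (σ x r) = 0
        · left
          refine ⟨hx0, ?_⟩
          by_contra hy0
          simp only [cidx, if_pos hx0, if_neg hy0] at hcr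
          exact absurd hcr (by simp)
        · right
          have hy0 : y (σ y r) ≠ 0 := by
            intro hy0
            simp only [cidx, if_neg hx0, if_pos hy0] at hcr
            exact absurd hcr (by simp)
          simp only [cidx, if_neg hx0, if_neg hy0, Option.some.injEq, colr, Prod.mk.injEq] at hcr
          obtain ⟨hp, hk2, hk3⟩ := hcr
          set J := Int.log 2 |x (σ x r)| with hJ
          set J' := Int.log 2 |y (σ y r)| with hJ'
          obtain ⟨hxl, hxu⟩ := log_bounds _ hx0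
          obtain ⟨hyl, hyu⟩ := log_bounds _ hy0
          rw [← hJ] at hxl hxu
          rw [← hJ'] at hyl hyu
          have hpar : (J % 2 = 0 ↔ J' % 2 = 0) := by simpa using hp
          rcases lt_trichotomy J J' with hlt | heq | hgt
          · -- J + 2 ≤ J'
            right; right; right
            have h2 : J + 1 + 1 ≤ J' := by omega
            have h3 : (2 : ℝ) ^ (J + 1 + 1) ≤ (2 : ℝ) ^ J' := zpow_le_zpow_right₀ (by norm_num) h2
            have h4 : (2 : ℝ) ^ (J + 1 + 1) = (2 : ℝ) ^ (J + 1) * 2 := zpow_add_one₀ (by norm_num) _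
            linarith
          · rw [← heq] at hk2 hk3 hyl hyu
            by_cases hn : π J x = π J y
            · left
              rw [← hn] at hk3
              exact hκ3 J (π J x) ⟨x, hx, hx0, hJ.symm, rfl⟩
                ⟨y, hy, hy0, by rw [← hJ', ← heq], hn.symm⟩ hk3
            · right; left
              have hfar : (8 * m + 2) * (2 : ℝ) ^ J < dist (π J x) (π J y) := by
                by_contra hcon
                rw [not_lt] at hcon
                exact hκ2 J _ _ ⟨hπ1 J x hx, hπ1 J y hy, hn, hcon⟩ hk2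
              have h1 := hπ2 J x hx
              have h2 := hπ2 J y hy
              have h3 : dist (π J x) (π J y) ≤ dist (π J x) x + dist x y + dist y (π J y) :=
                dist_triangle4 _ _ _ _
              rw [dist_comm (π J x) x] at h3
              have h4 : 8 * m * (2 : ℝ) ^ J < dist x y := by linarith
              have h5 : (2 : ℝ) ^ (J + 1) = (2 : ℝ) ^ J * 2 := zpow_add_one₀ (by norm_num) _
              have h6 : (2 : ℝ) ^ J * 2 ≤ dist x y / (4 * m) := by
                rw [le_div_iff₀ (by positivity)]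
                nlinarith
              constructor <;> linarith
          · right; right; left
            have h2 : J' + 1 + 1 ≤ J := by omega
            have h3 : (2 : ℝ) ^ (J' + 1 + 1) ≤ (2 : ℝ) ^ J := zpow_le_zpow_right₀ (by norm_num) h2
            have h4 : (2 : ℝ) ^ (J' + 1 + 1) = (2 : ℝ) ^ (J' + 1) * 2 :=
              zpow_add_one₀ (by norm_num) _
            linarith)
    rw [← hΦ] at hest
    obtain ⟨h1, h2⟩ := hest
    have hd0 : 0 ≤ dist x y := dist_nonneg
    have hD0 : 0 ≤ dist (Φ x) (Φ y) := dist_nonneg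
    constructor
    · have hs : 0 < Real.sqrt (64 * m) := Real.sqrt_pos.2 (by positivity)
      have h3 : dist x y ≤ Real.sqrt (64 * m) * dist (Φ x) (Φ y) := by
        apply (pow_le_pow_iff_left₀ hd0 (by positivity) (two_ne_zero)).1
        rw [mul_pow, Real.sq_sqrt (by positivity)]
        exact h1
      change (Real.sqrt (64 * m))⁻¹ * dist x y ≤ _
      rw [inv_mul_le_iff₀ hs]
      exact h3
    · apply (pow_le_pow_iff_left₀ hD0 (by positivity) (two_ne_zero)).1
      rw [mul_pow]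
      have : ((hi : ℝ)) ^ 2 = 16 * m := by
        have h3 : hi ^ 2 = 16 * (m : ℝ≥0) := NNReal.sq_sqrt _
        have h4 := congrArg (fun z : ℝ≥0 => (z : ℝ)) h3
        simpa using h4
      rw [this]
      exact h2
  have hU := union_embeds C m lo hi (by positivity) P (fun _ => Φ) hmain
  have hXU : X = ⋃ c, P c := by
    ext x
    simp only [Set.mem_iUnion]
    exact ⟨fun hx => ⟨cidx x, hx, rfl⟩, fun ⟨c, hx, _⟩ => hx⟩
  rw [hXU]
  exact hU


lemma IsSparse.mono {m m' : ℕ} (h : m ≤ m') {x : L2} (hx : IsSparse m x) : IsSparse m' x := by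
  obtain ⟨s, hs, hs0⟩ := hx
  exact ⟨s, hs.trans h, hs0⟩

theorem sparse_embeds (m N : ℕ) :
    ∃ (k : ℕ) (D : ℝ), ∀ X : Set L2, (∀ x ∈ X, IsSparse m x) → DoublingWith X N →
      BiLipEmbeds X k D := by
  obtain ⟨k, D, h⟩ := sparse_embeds_aux (m + 1) (Nat.succ_le_succ (Nat.zero_le m)) N
  exact ⟨k, D, fun X hX hd => h X (fun x hx => (hX x hx).mono (Nat.le_succ m)) hd⟩

end Vale.Agent.P208
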