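import Vale.Agent.P208.Ortho

set_option autoImplicit false

namespace Vale.Agent.P208

/-- Existence of a maximal `ρ`-separated subset (a net). -/
lemma exists_net {E : Type*} [PseudoMetricSpace E] (X : Set E) (ρ : ℝ) (hρ : 0 < ρ) :
    ∃ Nt : Set E, Nt ⊆ X ∧ (∀ a ∈ Nt, ∀ b ∈ Nt, a ≠ b → ρ ≤ dist a b) ∧
      ∀ x ∈ X, ∃ n ∈ Nt, dist x n < ρ := by
  classical
  let S : Set (Set E) := {A | A ⊆ X ∧ ∀ a ∈ A, ∀ b ∈ A, a ≠ b → ρ ≤ dist a b}
  obtain ⟨M, hM⟩ := zorn_subset S (by
    intro c hcS hc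
    refine ⟨⋃₀ c, ⟨?_, ?_⟩, fun s hs => Set.subset_sUnion_of_mem hs⟩
    · exact Set.sUnion_subset fun s hs => (hcS hs).1
    · rintro a ⟨s, hs, ha⟩ b ⟨t, ht, hb⟩ hab
      rcases hc.total hs ht with h | h
      · exact (hcS ht).2 a (h ha) b hb hab
      · exact (hcS hs).2 a ha b (h hb) hab)
  refine ⟨M, hM.prop.1, hM.prop.2, fun x hx => ?_⟩
  by_contra hcon
  push Not at hcon
  have hins : insert x M ∈ S := by
    refine ⟨Set.insert_subset hx hM.prop.1, ?_⟩
    rintro a (rfl | ha) b (rfl | hb) hab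
    · exact absurd rfl hab
    · exact hcon b hb
    · rw [dist_comm]; exact hcon a ha
    · exact hM.prop.2 a ha b hb hab
  have hxM : x ∈ M := hM.le_of_ge hins (Set.subset_insert x M) (Set.mem_insert x M)
  have := hcon x hxM
  rw [dist_self] at this
  linarith

/-- Greedy colouring of a (possibly infinite) graph all of whose vertices have fewer than `q`
neighbours. -/
lemma exists_coloring {V : Type*} (adj : V → V → Prop) (hsymm : ∀ u v, adj u v → adj v u)
    (hirr : ∀ v, ¬ adj v v) (q : ℕ)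
    (hdeg : ∀ v, {u | adj v u}.Finite ∧ {u | adj v u}.ncard < q) :
    ∃ κ : V → Fin q, ∀ u v, adj u v → κ u ≠ κ v := by
  classical
  rcases isEmpty_or_nonempty V with hV | ⟨⟨v0⟩⟩
  · exact ⟨fun v => (hV.false v).elim, fun u => (hV.false u).elim⟩
  have hq : 0 < q := lt_of_le_of_lt (Nat.zero_le _) (hdeg v0).2
  have : Nonempty (Fin q) := ⟨⟨0, hq⟩⟩
  have hpick : ∀ F : Finset (Fin q), F.card < q → ∃ c, c ∉ F := by
    intro F hF
    by_contra hcon
    push Not at hcon
    have : F = Finset.univ := Finset.eq_univ_iff_forall.2 hcon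
    rw [this, Finset.card_univ, Fintype.card_fin] at hF
    exact lt_irrefl _ hF
  let r : V → V → Prop := WellOrderingRel
  have wf : WellFounded r := IsWellFounded.wf
  let forb : ∀ v, (∀ u, r u v → Fin q) → Finset (Fin q) := fun v ih =>
    (hdeg v).1.toFinset.image
      (fun u => if h : r u v then ih u h else Classical.arbitrary _)
  have hforb : ∀ v ih, (forb v ih).card < q := by
    intro v ih
    calc (forb v ih).card ≤ (hdeg v).1.toFinset.card := Finset.card_image_le
      _ = {u | adj v u}.ncard := (Set.ncard_eq_toFinset_card _ (hdeg v).1).symm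
      _ < q := (hdeg v).2
  obtain ⟨κ, hκ⟩ : ∃ κ : V → Fin q, ∀ v, κ v = Classical.choose (hpick _ (hforb v fun u _ => κ u)) :=
    ⟨wf.fix (fun v ih => Classical.choose (hpick _ (hforb v ih))), fun v => wf.fix_eq _ v⟩
  have key : ∀ u v, r u v → adj v u → κ u ≠ κ v := by
    intro u v huv hadj heq
    have h1 : κ v ∉ forb v (fun u _ => κ u) := by
      rw [hκ v]
      exact Classical.choose_spec (hpick _ (hforb v fun u _ => κ u))
    apply h1
    simp only [forb, Finset.mem_image]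
    refine ⟨u, by simpa using hadj, ?_⟩
    simp only [dif_pos huv]
    exact heq
  refine ⟨κ, fun u v huv => ?_⟩
  have hne : u ≠ v := by
    rintro rfl
    exact hirr u huv
  rcases trichotomous_of r u v with h | h | h
  · exact key u v h (hsymm _ _ huv)
  · exact absurd h hne
  · exact (key v u h huv).symm

lemma cover_iter {E : Type*} [PseudoMetricSpace E] {X : Set E} {N : ℕ} (hd : DoublingWith X N)
    (a : ℕ) (x : E) (hx : x ∈ X) (r : ℝ) (hr : 0 < r) :
    ∃ C : Finset E, (C : Set E) ⊆ X ∧ C.card ≤ N ^ a ∧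
      X ∩ Metric.ball x r ⊆ ⋃ c ∈ C, Metric.ball c (r * (3 / 5) ^ a) := by
  classical
  induction a with
  | zero =>
    refine ⟨{x}, by simpa using hx, by simp, ?_⟩
    intro y hy
    simpa using hy.2
  | succ a ih =>
    obtain ⟨C, hC, hcard, hcov⟩ := ih
    have hs : 0 < r * (3 / 5) ^ a := by positivity
    obtain ⟨C', hC', hcard', hcov'⟩ := cover_step hd C hC _ hs (X ∩ Metric.ball x r)
      Set.inter_subset_left hcov
    refine ⟨C', hC', ?_, closed_cover_to_open ?_ hcov'⟩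
    · calc C'.card ≤ C.card * N := hcard'
        _ ≤ N ^ a * N := Nat.mul_le_mul_right _ hcard
        _ = N ^ (a + 1) := (pow_succ N a).symm
    · rw [pow_succ]
      nlinarith

lemma index_packing {E : Type*} [PseudoMetricSpace E] {X : Set E} {N : ℕ}
    (hd : DoublingWith X N) (a : ℕ) (x0 : E) (hx0 : x0 ∈ X) (r : ℝ) (hr : 0 < r) (ρ : ℝ)
    (hρ : 2 * (r * (3 / 5) ^ a) ≤ ρ) {ι : Type*} (I : Set ι) (pt : ι → E)
    (hpt : ∀ i ∈ I, pt i ∈ X ∧ dist (pt i) x0 < r)
    (hsep : ∀ i ∈ I, ∀ i' ∈ I, i ≠ i' → ρ ≤ dist (pt i) (pt i')) :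
    I.Finite ∧ I.ncard ≤ N ^ a := by
  classical
  obtain ⟨C, -, hcard, hcov⟩ := cover_iter hd a x0 hx0 r hr
  have hch : ∀ i ∈ I, ∃ c ∈ C, pt i ∈ Metric.ball c (r * (3 / 5) ^ a) := by
    intro i hi
    have := hcov ⟨(hpt i hi).1, (hpt i hi).2⟩
    simp only [Set.mem_iUnion] at this
    obtain ⟨c, hc, h⟩ := this
    exact ⟨c, hc, h⟩
  have : Nonempty E := ⟨x0⟩
  choose! φ hφ using hch
  have hmaps : ∀ i ∈ I, φ i ∈ (C : Set E) := fun i hi => (hφ i hi).1
  have hinj : Set.InjOn φ I := by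
    intro i hi i' hi' h
    by_contra hne
    have h1 := (hφ i hi).2
    have h2 := (hφ i' hi').2
    rw [← h] at h2
    rw [Metric.mem_ball] at h1 h2
    have h3 : dist (pt i) (pt i') ≤ dist (pt i) (φ i) + dist (pt i') (φ i) :=
      dist_triangle_right _ _ _
    have h4 := hsep i hi i' hi' hne
    linarith
  refine ⟨Set.Finite.of_injOn hmaps hinj C.finite_toSet, ?_⟩
  calc I.ncard ≤ (C : Set E).ncard := Set.ncard_le_ncard_of_injOn φ hmaps hinj C.finite_toSet
    _ = C.card := Set.ncard_coe_finset C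
    _ ≤ N ^ a := hcard

end Vale.Agent.P208
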